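import Vale.Agent.P279.Core
import Vale.Agent.P279.Th
import Vale.Agent.P279.Cub
import Vale.Agent.P279.Cone
import Vale.Agent.P279.Kill
import Vale.Agent.P279.Wid
import Vale.Agent.P279.Gen
import Vale.Agent.P279.Fin

namespace Vale.Agent.Results.P279.Nagata

open Vale.Agent.P279

/-- Nagata's conjecture: for `r ≥ 10` there is a countable family of Zariski-closed sets of
`r`-tuples of points, each missing some tuple of distinct points, such that for every tuple of
distinct points outside all of them every nonzero curve of degree `d` with multiplicities at least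
`m i` satisfies `∑ m i < d √r`. -/
theorem result : ∀ r : ℕ, 10 ≤ r → ∃ Z : ℕ → Set (Fin r → P2),
    (∀ n, ZClosed (Z n) ∧ ∃ p : Fin r → P2, Function.Injective p ∧ p ∉ Z n) ∧
    ∀ p : Fin r → P2, Function.Injective p → (∀ n, p ∉ Z n) →
      ∀ d : ℕ, 1 ≤ d → ∀ F : MvPolynomial (Fin 3) ℂ, F ≠ 0 → F.IsHomogeneous d →
        ∀ m : Fin r → ℕ, (∀ i, MultGe F (p i) (m i)) →
          ((∑ i, m i : ℕ) : ℝ) < d * Real.sqrt r :=
  fin (gen (core th cub cone kill wid))

end Vale.Agent.Results.P279.Nagata
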